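import Vale.Agent.P207.N4.Dim
import Vale.Agent.P207.N4.H340.NearQ
import Vale.Agent.P207.N4.H988.T3Q
import Vale.Agent.P207.N4.H469.T2g
import Vale.Agent.P207.H387.LemQ

/-!
# P207, line N4, row S-INV: **the S-bundle is invariant under the stable holonomy**
-/

open Set Filter Topology Metric MeasureTheory
open scoped ContDiff

set_option maxSynthPendingDepth 3

noncomputable section

namespace Vale.Agent.P207.N4.H340

open Vale.Agent.P207.N3 Vale.Agent.P207.N4.H709 Vale.Agent.P207.H751 Vale.Agent.P207.H340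
open Vale.Agent.P207.H686 Vale.Agent.P207.N4.H751

variable [Dim]

variable {Γ X B : Type} [Group Γ] [MetricSpace X] [ProperSpace X] [MulAction Γ X]
  [IsIsometricSMul Γ X] [TopologicalSpace B] [CompactSpace B] [T2Space B] [MulAction Γ B]
  [ContinuousConstSMul Γ B] {L : Leaf Γ X B} [MeasurableSpace B] [BorelSpace B] {V : Type}
  [NormedAddCommGroup V] [NormedSpace ℝ V] [FiniteDimensional ℝ V] {P : Pic L V}

/-! ### the derivative of the holonomy -/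

theorem pt_contAt (x : X) : Continuous (P.Af.pt x) :=
  P.Af.pt_cont.comp (by fun_prop : Continuous fun q : E2 => ((x, q) : X × E2))

theorem ne_ev {x : X} {ξ : B} {q : E2} (hq : P.Af.pt x q ≠ ξ) :
    ∀ᶠ p in 𝓝 q, P.Af.pt x p ≠ ξ :=
  (pt_contAt x).continuousAt.eventually (isOpen_compl_singleton.mem_nhds hq)

theorem hh_diff {ε₀ : ℝ} (h3 : P.T3 ε₀) {x : X} {ξ : B} (h : ξ ≠ L.ep x) {q : E2}
    (hq : P.Af.pt x q ≠ ξ) : DifferentiableAt ℝ (P.hh x ξ) q :=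
  ((h3.1 x ξ h).1.differentiableOn (by norm_num)).differentiableAt (ne_ev hq)

theorem pt0_ne {x : X} {ξ : B} (h : ξ ≠ L.ep x) : P.Af.pt x 0 ≠ ξ := by
  rw [P.Af.pt_zero]
  exact h.symm

theorem ep_flow (t : ℝ) (x : X) : L.ep (L.φ t x) = L.ep x := by
  rw [L.ep_flip, L.ep_flip, L.flip_φ, L.em_φ]

theorem fderiv_flow {ε₀ : ℝ} (h3 : P.T3 ε₀) {x : X} {ξ : B} (h : ξ ≠ L.ep x) (t : ℝ) :
    fderiv ℝ (P.hh (L.φ t x) ξ) 0 ∘L (P.Af.P t x : E2 →L[ℝ] E2) =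
      (P.Af.P t (L.hol ξ x) : E2 →L[ℝ] E2) ∘L fderiv ℝ (P.hh x ξ) 0 := by
  have h' : ξ ≠ L.ep (L.φ t x) := by rw [ep_flow]; exact h
  have h0 : DifferentiableAt ℝ (P.hh (L.φ t x) ξ) (P.Af.P t x 0) := by
    rw [map_zero]
    exact hh_diff h3 h' (pt0_ne h')
  have e1 : HasFDerivAt (fun q => P.hh (L.φ t x) ξ (P.Af.P t x q))
      (fderiv ℝ (P.hh (L.φ t x) ξ) (P.Af.P t x 0) ∘L (P.Af.P t x : E2 →L[ℝ] E2)) 0 :=
    h0.hasFDerivAt.comp 0 (P.Af.P t x : E2 →L[ℝ] E2).hasFDerivAt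
  rw [map_zero] at e1
  have e2 : HasFDerivAt (fun q => P.Af.P t (L.hol ξ x) (P.hh x ξ q))
      ((P.Af.P t (L.hol ξ x) : E2 →L[ℝ] E2) ∘L fderiv ℝ (P.hh x ξ) 0) 0 :=
    (P.Af.P t (L.hol ξ x) : E2 →L[ℝ] E2).hasFDerivAt.comp 0
      (hh_diff h3 h (pt0_ne h)).hasFDerivAt
  have e3 : (fun q => P.hh (L.φ t x) ξ (P.Af.P t x q)) =ᶠ[𝓝 0]
      fun q => P.Af.P t (L.hol ξ x) (P.hh x ξ q) := by
    filter_upwards [ne_ev (P := P) (pt0_ne h)] with q hq using H761.hh_flow h t hq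
  exact e1.unique (e2.congr_of_eventuallyEq e3)

theorem hh_zero {x : X} {ξ : B} (h : ξ ≠ L.ep x) : P.hh x ξ 0 = 0 := by
  show P.Af.ch (L.hol ξ x) (P.Af.pt x 0) = 0
  rw [P.Af.pt_zero, ← L.hol_ep ξ x h, ← P.Af.pt_zero, P.Af.ch_pt]

/-- the holonomy back -/
theorem hh_back {x : X} {ξ : B} (h : ξ ≠ L.ep x) {q : E2} (hq : P.Af.pt x q ≠ ξ) :
    P.hh (L.hol ξ x) (L.em x) (P.hh x ξ q) = q := by
  show P.Af.ch (L.hol (L.em x) (L.hol ξ x)) (P.Af.pt (L.hol ξ x)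
    (P.Af.ch (L.hol ξ x) (P.Af.pt x q))) = q
  rw [P.Af.pt_ch _ _ (by rw [L.hol_em ξ x h]; exact hq), L.hol_hol ξ _ x h (L.em_ne_ep x),
    L.hol_self, P.Af.ch_pt]

theorem fderiv_back {ε₀ : ℝ} (h3 : P.T3 ε₀) {x : X} {ξ : B} (h : ξ ≠ L.ep x)
    {A : E2 ≃L[ℝ] E2} (hA : (A : E2 →L[ℝ] E2) = fderiv ℝ (P.hh x ξ) 0) :
    fderiv ℝ (P.hh (L.hol ξ x) (L.em x)) 0 = (A.symm : E2 →L[ℝ] E2) := by
  have h' : L.em x ≠ L.ep (L.hol ξ x) := by
    rw [L.hol_ep ξ x h]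
    exact L.em_ne_ep x
  have h0 : DifferentiableAt ℝ (P.hh (L.hol ξ x) (L.em x)) (P.hh x ξ 0) := by
    rw [hh_zero h]
    exact hh_diff h3 h' (pt0_ne h')
  have e1 : HasFDerivAt (fun q => P.hh (L.hol ξ x) (L.em x) (P.hh x ξ q))
      (fderiv ℝ (P.hh (L.hol ξ x) (L.em x)) (P.hh x ξ 0) ∘L fderiv ℝ (P.hh x ξ) 0) 0 :=
    h0.hasFDerivAt.comp 0 (hh_diff h3 h (pt0_ne h)).hasFDerivAt
  rw [hh_zero h, ← hA] at e1
  have e3 : (fun q => P.hh (L.hol ξ x) (L.em x) (P.hh x ξ q)) =ᶠ[𝓝 0] id := by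
    filter_upwards [ne_ev (P := P) (pt0_ne h)] with q hq using hh_back h hq
  have e4 := (e1.congr_of_eventuallyEq e3.symm).unique (hasFDerivAt_id (0 : E2))
  ext1 v
  have e5 := DFunLike.congr_fun e4 (A.symm v)
  simp only [ContinuousLinearMap.comp_apply, ContinuousLinearMap.id_apply,
    ContinuousLinearEquiv.coe_coe, ContinuousLinearEquiv.apply_symm_apply] at e5
  exact e5

/-! ### the centre -/

theorem exists_theta {a b : ℝ} (ha : 0 < a) (hp : 2 * b < 3 * a) :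
    ∃ θ : ℝ, 0 < θ ∧ θ < 1 ∧ 2 * b < (2 + θ) * a := by
  obtain ⟨θ, h1, h2⟩ : ∃ θ : ℝ, max 0 ((2 * b - 2 * a) / a) < θ ∧ θ < 1 := by
    refine exists_between (max_lt one_pos ?_)
    rw [div_lt_one ha]
    linarith
  refine ⟨θ, (le_max_left _ _).trans_lt h1, h2, ?_⟩
  have h3 : (2 * b - 2 * a) / a < θ := (le_max_right _ _).trans_lt h1
  rw [div_lt_iff₀ ha] at h3
  linarith

theorem sinv0 (hR : P.RateP) {ε₀ : ℝ} (hε₀ : 0 < ε₀) (h2d : P.T2d ε₀) (h2h : P.T2h ε₀)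
    (h3 : P.T3 ε₀) (hA : H469.AngR P) {x : X} {ξ : B} (h : ξ ≠ L.ep x) :
    ∀ s ∈ (pzd P hR).Sm (L.hol ξ x), pb (fderiv ℝ (P.hh x ξ) 0) s ∈ (pzd P hR).Sm x := by
  obtain ⟨θ, hθ0, hθ1, hθ⟩ := exists_theta P.Ra.a_pos P.Ra.pinch
  obtain ⟨ε, hε, M, hNK⟩ := nearK_of P hR hε₀ h2d h2h h3 hθ0.le hθ1
  obtain ⟨CA, hCA1, hCA⟩ := hA
  obtain ⟨Cb, -, hCb⟩ := (pzd P hR).sm_bound
  set D := pzd P hR with hD
  have hlam : D.lam = Real.exp (-P.Ra.a) := by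
    show Real.exp (-(P.Ra.a * 1)) = _
    rw [mul_one]
  have hLam : D.Lam = Real.exp (2 * P.Ra.b) := by
    show Real.exp (P.Ra.b * 1) ^ 2 = _
    rw [mul_one, ← Real.exp_nat_mul]
    norm_num
  -- the chains
  set y' : ℕ → X := fun n => L.φ (n : ℝ) x with hy'
  set y : ℕ → X := fun n => L.φ (n : ℝ) (L.hol ξ x) with hy
  have hstep1 : ∀ (z : X) (n : ℕ), L.φ ((n + 1 : ℕ) : ℝ) z = L.φ 1 (L.φ (n : ℝ) z) := by
    intro z n
    rw [← L.φ_add]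
    congr 1
    push_cast
    ring
  have hn : ∀ n : ℕ, ξ ≠ L.ep (L.φ (n : ℝ) x) := fun n => by rw [ep_flow]; exact h
  have hyn : ∀ n : ℕ, L.hol ξ (L.φ (n : ℝ) x) = y n := fun n => L.hol_φ _ ξ x h
  -- the distances
  obtain ⟨n0, hn0⟩ := H988.far_near P (lt_min hε one_pos) one_pos h
  rw [mul_one] at hn0
  set Ct : ℝ := CA * Real.exp (P.Ra.a * n0) + 1 with hCt
  have hCA0 : 0 < CA := one_pos.trans_le hCA1
  have hCt0 : 0 < Ct := by positivity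
  have hgr : ∀ n ≥ n0, 0 < P.Bu.nu (y' n) ξ 0 ∧ ‖P.gr (y' n) ξ 0‖ ≤ Ct * D.lam ^ n := by
    intro n hnn
    have h1 := hCA (L.φ (n0 : ℝ) x) ξ hn0.1 ((n : ℝ) - n0)
      (sub_nonneg.2 (by exact_mod_cast hnn))
    have h2 : L.φ ((n : ℝ) - n0) (L.φ (n0 : ℝ) x) = y' n := by
      rw [← L.φ_add]
      show _ = L.φ (n : ℝ) x
      congr 1
      ring
    rw [h2] at h1
    refine ⟨h1.1, h1.2.1.trans ?_⟩
    have h4 : ‖P.gr (L.φ (n0 : ℝ) x) ξ 0‖ ≤ 1 := hn0.2.trans (min_le_right _ _)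
    have h5 : Real.exp (-(P.Ra.a * ((n : ℝ) - n0))) = Real.exp (P.Ra.a * n0) * D.lam ^ n := by
      rw [hlam, ← Real.exp_nat_mul, ← Real.exp_add]
      congr 1
      ring
    rw [h5]
    have h6 : 0 ≤ D.lam ^ n := pow_nonneg D.lam0.le _
    calc CA * (Real.exp (P.Ra.a * n0) * D.lam ^ n) * ‖P.gr (L.φ (n0 : ℝ) x) ξ 0‖
        ≤ CA * (Real.exp (P.Ra.a * n0) * D.lam ^ n) * 1 :=
          mul_le_mul_of_nonneg_left h4 (by positivity)
      _ = (CA * Real.exp (P.Ra.a * n0)) * D.lam ^ n := by ring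
      _ ≤ Ct * D.lam ^ n := by
          refine mul_le_mul_of_nonneg_right ?_ h6
          rw [hCt]
          linarith
  have htend : Tendsto (fun n : ℕ => Ct * D.lam ^ n) atTop (𝓝 (Ct * 0)) :=
    (tendsto_pow_atTop_nhds_zero_of_lt_one D.lam0.le D.lam1).const_mul Ct
  rw [mul_zero] at htend
  have hsmall : ∀ᶠ n : ℕ in atTop, Ct * D.lam ^ n ≤ ε := (htend.eventually (gt_mem_nhds hε)).mono
    fun _ h => h.le
  have hgap : D.lam ^ (2 + θ) * D.Lam < 1 := by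
    rw [hlam, hLam, ← Real.exp_mul, ← Real.exp_add, Real.exp_lt_one_iff]
    linarith
  have key := sinvK (D := D) (A := actF) (r := 1 / 2) (by norm_num) (Cb := Cb)
    (y := y) (y' := y') (G := fun n => P.Af.P 1 (y n)) (G' := fun n => P.Af.P 1 (y' n))
    (hinv := fun n => fderiv ℝ (P.hh (y' n) ξ) 0) (M := M) (t := fun n => Ct * D.lam ^ n)
    (Ct := Ct) (θ := θ) ?_ hCb ?_ ?_ ?_ ?_ ?_ ?_ hθ0 hθ1 hgap ?_
  · intro s hs
    have h1 : y 0 = L.hol ξ x := by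
      show L.φ ((0 : ℕ) : ℝ) (L.hol ξ x) = _
      rw [Nat.cast_zero, L.φ_zero]
    have h2 : y' 0 = x := by
      show L.φ ((0 : ℕ) : ℝ) x = _
      rw [Nat.cast_zero, L.φ_zero]
    have h4 := key s (by rw [h1]; exact hs)
    rw [actF_pull] at h4
    simp only [h2] at h4
    exact h4
  · -- Lemma Q
    intro e he Mq
    obtain ⟨C, -, hC⟩ := Vale.Agent.P207.H387.lemmaQ D e he (1 / 2) (by norm_num) (by norm_num) Mq
    exact ⟨C, hC⟩
  · intro v G L' v' hst s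
    exact D.sm_step hst s
  · intro n
    refine ⟨hstep1 _ n, rfl, ?_⟩
    rw [actF_push]
  · intro n
    refine ⟨hstep1 _ n, rfl, ?_⟩
    rw [actF_push]
  · intro n
    have h1 := fderiv_flow h3 (hn n) 1
    have h2 : y' (n + 1) = L.φ 1 (L.φ (n : ℝ) x) := hstep1 x n
    show fderiv ℝ (P.hh (y' (n + 1)) ξ) 0 ∘L (P.Af.P 1 (y' n) : E2 →L[ℝ] E2) =
      (P.Af.P 1 (y n) : E2 →L[ℝ] E2) ∘L fderiv ℝ (P.hh (y' n) ξ) 0
    rw [h2, h1, hyn]
  · intro n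
    have := pow_pos D.lam0 n
    positivity
  · intro n
    exact le_rfl
  · filter_upwards [hsmall, eventually_ge_atTop n0] with n h1 h2
    obtain ⟨h4, h5⟩ := hgr n h2
    have h6 := hNK (y' n) ξ (Ct * D.lam ^ n) ⟨h4, h5.trans h1⟩ h5
      (mul_pos hCt0 (pow_pos D.lam0 n)) h1
    rw [hyn] at h6
    exact h6

/-- the S-bundle and the holonomy, at the centre -/
theorem sinv_zero (hR : P.RateP) {ε₀ : ℝ} (hε₀ : 0 < ε₀) (h2d : P.T2d ε₀) (h2h : P.T2h ε₀)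
    (h3 : P.T3 ε₀) (hA : H469.AngR P) {x : X} {ξ : B} (h : ξ ≠ L.ep x) {A : E2 ≃L[ℝ] E2}
    (hAe : (A : E2 →L[ℝ] E2) = fderiv ℝ (P.hh x ξ) 0) (s : E2 →L[ℝ] E2) :
    s ∈ P.Sm x ↔ Pic.push A s ∈ P.Sm (L.hol ξ x) := by
  rw [mem_Sm_iff P hR, mem_Sm_iff P hR]
  have hfo : fo (Pic.push A s) = act A (fo s) := fo_push A s
  rw [hfo]
  have h' : L.em x ≠ L.ep (L.hol ξ x) := by
    rw [L.hol_ep ξ x h]
    exact L.em_ne_ep x
  have hback : L.hol (L.em x) (L.hol ξ x) = x := by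
    rw [L.hol_hol ξ _ x h (L.em_ne_ep x), L.hol_self]
  constructor
  · intro hs
    have h1 := sinv0 hR hε₀ h2d h2h h3 hA h' (fo s) (by rw [hback]; exact hs)
    rw [fderiv_back h3 h hAe] at h1
    exact h1
  · intro hs
    have h1 := sinv0 hR hε₀ h2d h2h h3 hA h _ hs
    rw [← hAe] at h1
    have h2 : pb (A : E2 →L[ℝ] E2) (act A (fo s)) = fo s := (act A).symm_apply_apply (fo s)
    rwa [h2] at h1

/-- **(SINV)**: the S-bundle is invariant under the stable holonomy -/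
theorem sinv_of (hR : P.RateP) (hSB : P.SB) {ε₀ : ℝ} (hε₀ : 0 < ε₀) (h2d : P.T2d ε₀)
    (h2h : P.T2h ε₀) (h3 : P.T3 ε₀) (hA : H469.AngR P) : P.SInv := by
  intro x ξ h q hq A hAe s
  set z := H988.trq P x q with hz
  have hem : L.em x = L.em z := (H988.em_trq P x q).symm
  have hzp : L.ep z = P.Af.pt x q := H988.ep_trq P x q
  have hξz : ξ ≠ L.ep z := by rw [hzp]; exact hq.symm
  set A1 := P.Af.lin x z with hA1
  set A2 := P.Af.lin (L.hol ξ x) (L.hol ξ z) with hA2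
  have hem2 : L.em (L.hol ξ x) = L.em (L.hol ξ z) := by
    rw [L.hol_em ξ x h, L.hol_em ξ z hξz]
  -- the derivative at the centre of `z`
  have e0 : ((A1.symm.trans (A.trans A2) : E2 ≃L[ℝ] E2) : E2 →L[ℝ] E2) =
      fderiv ℝ (P.hh z ξ) 0 := by
    have d0 : DifferentiableAt ℝ (P.hh z ξ) (A1 (q - q)) := by
      rw [sub_self, map_zero]
      exact hh_diff h3 hξz (pt0_ne hξz)
    have e1 : HasFDerivAt (fun p => A2.symm (P.hh z ξ (A1 (p - q))) + P.hh x ξ q)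
        ((A2.symm : E2 →L[ℝ] E2) ∘L (fderiv ℝ (P.hh z ξ) (A1 (q - q)) ∘L
          (A1 : E2 →L[ℝ] E2))) q := by
      have e2 : HasFDerivAt (fun p : E2 => A1 (p - q)) (A1 : E2 →L[ℝ] E2) q := by
        have e3 : HasFDerivAt (fun p : E2 => p - q) (ContinuousLinearMap.id ℝ E2) q :=
          (hasFDerivAt_id q).sub_const q
        exact (A1 : E2 →L[ℝ] E2).hasFDerivAt.comp q e3
      exact ((A2.symm : E2 →L[ℝ] E2).hasFDerivAt.comp q (d0.hasFDerivAt.comp q e2)).add_const _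
    have e4 : P.hh x ξ =ᶠ[𝓝 q] fun p => A2.symm (P.hh z ξ (A1 (p - q))) + P.hh x ξ q := by
      filter_upwards [ne_ev hq] with p hp using H988.hh_trq h hq hp
    have e5 := (e1.congr_of_eventuallyEq e4).fderiv
    rw [sub_self, map_zero] at e5
    rw [← hAe] at e5
    ext1 v
    have e6 := DFunLike.congr_fun e5 (A1.symm v)
    simp only [ContinuousLinearMap.comp_apply, ContinuousLinearEquiv.coe_coe,
      ContinuousLinearEquiv.apply_symm_apply] at e6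
    show A2 (A (A1.symm v)) = _
    rw [e6, ContinuousLinearEquiv.apply_symm_apply]
  have h1 := hSB.2.1 x z hem s
  have h2 := sinv_zero hR hε₀ h2d h2h h3 hA hξz e0 (Pic.push A1 s)
  have h4 := hSB.2.1 (L.hol ξ x) (L.hol ξ z) hem2 (Pic.push A s)
  rw [push_push] at h2 h4
  have h5 : A1.trans (A1.symm.trans (A.trans A2)) = A.trans A2 := by
    refine ContinuousLinearEquiv.ext (funext fun w => ?_)
    simp
  rw [h5] at h2
  exact (h1.trans h2).trans h4.symm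

end Vale.Agent.P207.N4.H340
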