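import Vale.Agent.P207.N4.Dim
import Vale.Agent.P207.N4.H340.SInvP
import Vale.Agent.P207.N4.H761.T3Main

/-!
# P207, line N4, row S-INV: **(SINV) holds over `PicG`**
-/

open Set Filter Topology Metric MeasureTheory
open scoped ContDiff

noncomputable section

namespace Vale.Agent.P207.N4.H340

open Vale.Agent.P207.N3

variable [Dim]

variable {Γ X B : Type} [Group Γ] [MetricSpace X] [ProperSpace X] [MulAction Γ X]
  [IsIsometricSMul Γ X] [TopologicalSpace B] [CompactSpace B] [T2Space B] [MulAction Γ B]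
  [ContinuousConstSMul Γ B] {L : Leaf Γ X B} [MeasurableSpace B] [BorelSpace B] {V : Type}
  [NormedAddCommGroup V] [NormedSpace ℝ V] [FiniteDimensional ℝ V]

/-- **(SINV)** -/
theorem sinvG (P : PicG L V) : P.toPic.SInv := by
  obtain ⟨ε₁, h1, h3⟩ := H761.t3 P
  obtain ⟨ε₂, h2, -, h2h⟩ := H709.t2h P.toPic one_pos (H469.t2dG P 1)
  have hR := H832.rateP P.toPic
  have hε : 0 < min ε₁ ε₂ := lt_min h1 h2
  refine sinv_of hR (H751.sb P.toPic hR) hε (H469.t2dG P _) ?_ (h3 _ (min_le_left _ _))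
    (H469.angR P)
  obtain ⟨C, hC⟩ := h2h
  exact ⟨C, fun x ξ hn => hC x ξ ⟨hn.1, hn.2.trans (min_le_right _ _)⟩⟩

end Vale.Agent.P207.N4.H340
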